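import Vale.Agent.P205.Fin

/-! Every smooth Riemannian metric on the torus `ℝ² / ℤ²` that is invariant under the circle of
translations in the second coordinate has a smooth isometric immersion into `ℝ⁴`. -/

open scoped ContDiff

theorem Vale.Agent.Results.P205.CircleTori.result (g : ℝ × ℝ → (ℝ × ℝ) → (ℝ × ℝ) → ℝ)
    (hlin : ∀ p w, IsLinearMap ℝ fun v => g p v w)
    (hsymm : ∀ p v w, g p v w = g p w v) (hpos : ∀ p v, v ≠ 0 → 0 < g p v v)
    (hs : ∀ v w, ContDiff ℝ ∞ fun p => g p v w)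
    (hper : ∀ x y, g (x + 1, y) = g (x, y)) (hinv : ∀ x y t, g (x, y + t) = g (x, y)) :
    ∃ Φ : ℝ × ℝ → EuclideanSpace ℝ (Fin 4), ContDiff ℝ ∞ Φ ∧
      (∀ x y, Φ (x + 1, y) = Φ (x, y)) ∧ (∀ x y, Φ (x, y + 1) = Φ (x, y)) ∧
      ∀ p v w : ℝ × ℝ, inner ℝ (fderiv ℝ Φ p v) (fderiv ℝ Φ p w) = g p v w :=
  Vale.Agent.P205.main_form g hlin hsymm hpos hs hper hinv
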